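import Vale.Agent.P103.Main

namespace Vale.Agent.Results.P103.Shub

open scoped Manifold ContDiff

/-- separated sets grow subexponentially at every scale -/
def SubExp {X : Type} [MetricSpace X] (f : X → X) : Prop :=
  ∀ ε > (0 : ℝ), ∀ κ > (0 : ℝ), ∀ᶠ n : ℕ in Filter.atTop, ∀ s : Finset X,
    (∀ x ∈ s, ∀ y ∈ s, x ≠ y → ∃ j < n, ε < dist (f^[j] x) (f^[j] y)) →
    (s.card : ℝ) ≤ Real.exp (κ * n)

/-- the functor `H_2(-; ℝ)` (singular homology) -/
noncomputable def H2 : CategoryTheory.Functor TopCat (ModuleCat.{0} ℝ) :=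
  (AlgebraicTopology.singularHomologyFunctor (ModuleCat.{0} ℝ) 2).obj (ModuleCat.of ℝ ℝ)

/-- `2` is an eigenvalue of `f_*` on `H_2(X; ℝ)` -/
def EigTwo {X : Type} [TopologicalSpace X] (f : C(X, X)) : Prop :=
  ∃ c : H2.obj (TopCat.of X), c ≠ 0 ∧ (H2.map (TopCat.ofHom f)).hom c = (2 : ℝ) • c

theorem result : ∃ (E H M : Type) (_ : NormedAddCommGroup E) (_ : NormedSpace ℝ E)
    (_ : FiniteDimensional ℝ E) (_ : TopologicalSpace H) (I : ModelWithCorners ℝ E H)
    (_ : I.Boundaryless) (_ : MetricSpace M) (_ : ChartedSpace H M) (_ : IsManifold I ∞ M)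
    (_ : CompactSpace M) (_ : Nonempty M) (f : C(M, M)),
    ContMDiff I I 1 f ∧ Dynamics.coverEntropy f Set.univ = 0 ∧ SubExp f ∧ EigTwo f := by
  obtain ⟨f, h1, h2, h3⟩ := Vale.Agent.P103.final
  obtain ⟨c, hc⟩ := h3.exists_hasEigenvector
  exact ⟨_, _, Vale.Agent.P103.Mfd, inferInstance, inferInstance, inferInstance, inferInstance,
    (𝓡 2).prod ((𝓡 1).prod (𝓡 5)), inferInstance, inferInstance, inferInstance, inferInstance,
    inferInstance, ⟨f (Vale.Agent.P103.pt0)⟩, f, h1, h2,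
    fun _ hε _ hκ => Vale.Agent.P103.sep_bound h2 hε hκ, c, hc.2, hc.apply_eq_smul⟩

end Vale.Agent.Results.P103.Shub
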